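import Vale.Agent.Lib.P200G_Final

open MvPolynomial

/-- Eisenbud-Green-Harris in three variables for degrees `(a, b, a + b - 3)`, `3 ≤ a ≤ b`, over every
field: if an ideal `I` of `K[x,y,z]` contains a regular sequence `f 0, f 1, f 2` of homogeneous forms
of degrees `a, b, c` with `c + 3 = a + b`, then the graded subspace `J` built from
`P = (x^a, y^b, z^c)` and the lexicographically first `q_d` monomials outside `P` in each degree is
an ideal. -/
theorem Vale.Agent.Results.P200.BoundaryDegrees.result {K : Type*} [Field K]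
    (a b c : ℕ) (ha : 3 ≤ a) (hab : a ≤ b) (hc : c + 3 = a + b)
    (I : Ideal (MvPolynomial (Fin 3) K)) (f : Fin 3 → MvPolynomial (Fin 3) K)
    (h0 : (f 0).IsHomogeneous a) (h1 : (f 1).IsHomogeneous b) (h2 : (f 2).IsHomogeneous c)
    (hreg : ∀ (i : Fin 3) (g : MvPolynomial (Fin 3) K),
      f i * g ∈ Ideal.span (f '' {j | j < i}) → g ∈ Ideal.span (f '' {j | j < i}))
    (hI : ∀ i, f i ∈ I) :
    ∃ L : Ideal (MvPolynomial (Fin 3) K),
      L.restrictScalars K = Vale.Agent.P200G.lexPlusPowersG a b c I :=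
  Vale.Agent.P200G.lexPlusPowersG_isIdeal a b c ha hab hc I f h0 h1 h2 hreg hI
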