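import Vale.Agent.Lib.P200_Main

open MvPolynomial

/-- Eisenbud-Green-Harris for three cubics in three variables, over every field: if an ideal `I`
of `K[x,y,z]` contains a regular sequence `f 0, f 1, f 2` of homogeneous cubics then the graded
subspace `J` built from `P = (x^3, y^3, z^3)` and the lexicographically first `q_d` monomials
outside `P` in each degree is an ideal. -/
theorem Vale.Agent.Results.P200.CubicsInThreeVars.result {K : Type*} [Field K]
    (I : Ideal (MvPolynomial (Fin 3) K)) (f : Fin 3 → MvPolynomial (Fin 3) K)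
    (hom : ∀ i, (f i).IsHomogeneous 3)
    (hreg : ∀ (i : Fin 3) (g : MvPolynomial (Fin 3) K),
      f i * g ∈ Ideal.span (f '' {j | j < i}) → g ∈ Ideal.span (f '' {j | j < i}))
    (hI : ∀ i, f i ∈ I) :
    ∃ L : Ideal (MvPolynomial (Fin 3) K), L.restrictScalars K = Vale.Agent.P200.lexPlusPowers I :=
  Vale.Agent.P200.lexPlusPowers_isIdeal I f hom hreg hI
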